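import Mathlib
import Vale.Agent.Lib.P084.Defs
import Vale.Agent.Lib.P084.Sum
import Vale.Agent.Lib.P084.SupStrict

/-!
Tingley's problem for decomposable spaces: sup-sums and l1-sums.  In Mathlib the norm of the
product `A × B` is the sup norm `max ‖a‖ ‖b‖`, and `WithLp 1 (A × B)` carries the norm
`‖a‖ + ‖b‖`.
-/

namespace Vale.Agent.Results.P084.A_sums

open Vale.Agent.Lib.P084 Metric

theorem result {A B Y : Type*} [NormedAddCommGroup A] [NormedSpace ℝ A] [Nontrivial A]
    [NormedAddCommGroup B] [NormedSpace ℝ B] [Nontrivial B]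
    [NormedAddCommGroup Y] [NormedSpace ℝ Y] :
    ((FiniteDimensional ℝ A ∧ FiniteDimensional ℝ B) ∨
        (StrictConvexSpace ℝ A ∧ StrictConvexSpace ℝ B) →
      ∀ f : sphere (0 : A × B) 1 → sphere (0 : Y) 1,
        (∀ x y, ‖(f x : Y) - (f y : Y)‖ = ‖(x : A × B) - (y : A × B)‖) →
        Function.Surjective f →
        ∃ L : (A × B) ≃ₗᵢ[ℝ] Y, ∀ x, (f x : Y) = L x) ∧
    (HasCompactFaces A → HasCompactFaces B →
      ∀ f : sphere (0 : WithLp 1 (A × B)) 1 → sphere (0 : Y) 1,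
        (∀ x y, ‖(f x : Y) - (f y : Y)‖ =
          ‖(x : WithLp 1 (A × B)) - (y : WithLp 1 (A × B))‖) →
        Function.Surjective f →
        ∃ L : WithLp 1 (A × B) ≃ₗᵢ[ℝ] Y, ∀ x, (f x : Y) = L x) := by
  constructor
  · rintro (⟨h1, h2⟩ | ⟨h1, h2⟩) f hiso hsurj
    · exact sup_sum_extends f hiso hsurj
    · exact sup_sum_extends_strict f hiso hsurj
  · intro hA hB f hiso hsurj
    exact l1_sum_extends hA hB f hiso hsurj

end Vale.Agent.Results.P084.A_sums
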