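import Mathlib
import Vale.Agent.Lib.P084.Sum

/-!
Tingley's problem for l1-sums of spaces that are finite-dimensional or strictly convex.
-/

namespace Vale.Agent.Results.P084.B_findim

open Vale.Agent.Lib.P084 Metric

theorem result {A B Y : Type*} [NormedAddCommGroup A] [NormedSpace ℝ A] [Nontrivial A]
    [NormedAddCommGroup B] [NormedSpace ℝ B] [Nontrivial B]
    [NormedAddCommGroup Y] [NormedSpace ℝ Y]
    (hA : FiniteDimensional ℝ A ∨ StrictConvexSpace ℝ A)
    (hB : FiniteDimensional ℝ B ∨ StrictConvexSpace ℝ B)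
    (f : sphere (0 : WithLp 1 (A × B)) 1 → sphere (0 : Y) 1)
    (hiso : ∀ x y, ‖(f x : Y) - (f y : Y)‖ = ‖(x : WithLp 1 (A × B)) - (y : WithLp 1 (A × B))‖)
    (hsurj : Function.Surjective f) :
    ∃ L : WithLp 1 (A × B) ≃ₗᵢ[ℝ] Y, ∀ x, (f x : Y) = L x := by
  have hA' : HasCompactFaces A := by
    rcases hA with h | h
    · exact hasCompactFaces_of_finiteDimensional
    · exact hasCompactFaces_of_strictConvex
  have hB' : HasCompactFaces B := by
    rcases hB with h | h
    · exact hasCompactFaces_of_finiteDimensional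
    · exact hasCompactFaces_of_strictConvex
  exact l1_sum_extends hA' hB' f hiso hsurj

end Vale.Agent.Results.P084.B_findim
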