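import Vale.Agent.Results.P084.A00_general
import Vale.Agent.Results.P084.A_sums
import Vale.Agent.Results.P084.B_findim

namespace Vale.Agent.Results.P084.A000_master

open Vale.Agent.Lib.P084 Metric

/-- Every finite dimensional real normed space has the Mazur-Ulam property. -/
def part1.{u, v} : Prop :=
  ∀ {X : Type u} {Y : Type v} [NormedAddCommGroup X] [NormedSpace ℝ X] [FiniteDimensional ℝ X]
    [NormedAddCommGroup Y] [NormedSpace ℝ Y]
    (f : sphere (0 : X) 1 → sphere (0 : Y) 1),
    (∀ x y, ‖(f x : Y) - (f y : Y)‖ = ‖(x : X) - (y : X)‖) →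
    Function.Surjective f →
    ∃ L : X ≃ₗᵢ[ℝ] Y, ∀ x, (f x : Y) = L x

/-- Sup-sums of two finite dimensional or two strictly convex spaces, and l1-sums of two spaces
with compact faces, have the Mazur-Ulam property. -/
def part2.{u, v, w} : Prop :=
  ∀ {A : Type u} {B : Type w} {Y : Type v} [NormedAddCommGroup A] [NormedSpace ℝ A] [Nontrivial A]
    [NormedAddCommGroup B] [NormedSpace ℝ B] [Nontrivial B]
    [NormedAddCommGroup Y] [NormedSpace ℝ Y],
    ((FiniteDimensional ℝ A ∧ FiniteDimensional ℝ B) ∨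
        (StrictConvexSpace ℝ A ∧ StrictConvexSpace ℝ B) →
      ∀ f : sphere (0 : A × B) 1 → sphere (0 : Y) 1,
        (∀ x y, ‖(f x : Y) - (f y : Y)‖ = ‖(x : A × B) - (y : A × B)‖) →
        Function.Surjective f →
        ∃ L : (A × B) ≃ₗᵢ[ℝ] Y, ∀ x, (f x : Y) = L x) ∧
    (HasCompactFaces A → HasCompactFaces B →
      ∀ f : sphere (0 : WithLp 1 (A × B)) 1 → sphere (0 : Y) 1,
        (∀ x y, ‖(f x : Y) - (f y : Y)‖ =
          ‖(x : WithLp 1 (A × B)) - (y : WithLp 1 (A × B))‖) →
        Function.Surjective f →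
        ∃ L : WithLp 1 (A × B) ≃ₗᵢ[ℝ] Y, ∀ x, (f x : Y) = L x)

/-- L1-sums of two spaces, each finite dimensional or strictly convex, have the Mazur-Ulam
property. -/
def part3.{u, v, w} : Prop :=
  ∀ {A : Type u} {B : Type w} {Y : Type v} [NormedAddCommGroup A] [NormedSpace ℝ A] [Nontrivial A]
    [NormedAddCommGroup B] [NormedSpace ℝ B] [Nontrivial B]
    [NormedAddCommGroup Y] [NormedSpace ℝ Y],
    (FiniteDimensional ℝ A ∨ StrictConvexSpace ℝ A) →
    (FiniteDimensional ℝ B ∨ StrictConvexSpace ℝ B) →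
    ∀ f : sphere (0 : WithLp 1 (A × B)) 1 → sphere (0 : Y) 1,
      (∀ x y, ‖(f x : Y) - (f y : Y)‖ = ‖(x : WithLp 1 (A × B)) - (y : WithLp 1 (A × B))‖) →
      Function.Surjective f →
      ∃ L : WithLp 1 (A × B) ≃ₗᵢ[ℝ] Y, ∀ x, (f x : Y) = L x

/-- Tingley's problem: every finite dimensional real normed space has the Mazur-Ulam property,
and so do, in any dimension, sup-sums of two strictly convex spaces, and l1-sums of two spaces
each finite dimensional or strictly convex, or more generally with compact faces. -/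
theorem result.{u, v, w} : part1.{u, v} ∧ part2.{u, v, w} ∧ part3.{u, v, w} :=
  ⟨fun f hiso hsurj => Vale.Agent.Results.P084.A00_general.result f hiso hsurj,
    Vale.Agent.Results.P084.A_sums.result,
    fun hA hB f hiso hsurj => Vale.Agent.Results.P084.B_findim.result hA hB f hiso hsurj⟩

end Vale.Agent.Results.P084.A000_master
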