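import Mathlib
import Vale.Agent.Lib.P084G.K2

/-!
Tingley's problem for all finite dimensional real normed spaces: the Mazur-Ulam property, with
no hypothesis on the norm of `X` and no hypothesis on `Y`.
-/

namespace Vale.Agent.Results.P084.A00_general

open Metric

theorem result {X Y : Type*} [NormedAddCommGroup X] [NormedSpace ℝ X] [FiniteDimensional ℝ X]
    [NormedAddCommGroup Y] [NormedSpace ℝ Y]
    (f : sphere (0 : X) 1 → sphere (0 : Y) 1)
    (hiso : ∀ x y, ‖(f x : Y) - (f y : Y)‖ = ‖(x : X) - (y : X)‖)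
    (hsurj : Function.Surjective f) :
    ∃ L : X ≃ₗᵢ[ℝ] Y, ∀ x, (f x : Y) = L x :=
  Vale.Agent.Lib.P084T.main_general f hiso hsurj

end Vale.Agent.Results.P084.A00_general
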