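import Mathlib
import Vale.Agent.Lib.P084_helper82.Final

/-!
Tingley's problem for finite dimensional strictly convex spaces with `C²` norms, in dimension at
least three: the Mazur-Ulam property.
-/

namespace Vale.Agent.Results.P084.A_C2

open Metric Vale.Agent.Lib.P084_helper82

theorem result {X Y : Type*} [NormedAddCommGroup X] [NormedSpace ℝ X] [FiniteDimensional ℝ X]
    [StrictConvexSpace ℝ X] [NormedAddCommGroup Y] [NormedSpace ℝ Y]
    (hX : ∀ z : X, z ≠ 0 → ContDiffAt ℝ 2 (fun y : X => ‖y‖) z)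
    (hdim : 3 ≤ Module.finrank ℝ X)
    (f : sphere (0 : X) 1 → sphere (0 : Y) 1)
    (hiso : ∀ x y, ‖(f x : Y) - (f y : Y)‖ = ‖(x : X) - (y : X)‖)
    (hsurj : Function.Surjective f) :
    ∃ L : X ≃ₗᵢ[ℝ] Y, ∀ x, (f x : Y) = L x := by
  have hnt : Nontrivial X := Module.nontrivial_of_finrank_pos (R := ℝ) (by omega)
  have hY' : FiniteDimensional ℝ Y := finiteDimensional_target f hiso hsurj
  obtain ⟨f', g', hS, hf'⟩ := exists_sphIso f hiso hsurj
  obtain ⟨T, hT⟩ := exists_linear_total hX hdim hS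
  refine ⟨T, fun x => ?_⟩
  rw [← hf', hT _ (by simp)]

end Vale.Agent.Results.P084.A_C2
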