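import Mathlib
import Vale.Agent.Lib.P084.Defs
import Vale.Agent.Lib.P084.Sum

/-!
Tingley's problem for l1-sums: if `A` and `B` are nonzero real normed spaces with compact faces,
then every surjective isometry from the unit sphere of the l1-sum of `A` and `B` onto the unit
sphere of any real normed space `Y` is the restriction of a linear isometry of the whole spaces.
-/

namespace Vale.Agent.Results.P084.A_main

open Vale.Agent.Lib.P084 Metric

theorem result {A B Y : Type*} [NormedAddCommGroup A] [NormedSpace ℝ A] [Nontrivial A]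
    [NormedAddCommGroup B] [NormedSpace ℝ B] [Nontrivial B]
    [NormedAddCommGroup Y] [NormedSpace ℝ Y]
    (hA : HasCompactFaces A) (hB : HasCompactFaces B)
    (f : sphere (0 : WithLp 1 (A × B)) 1 → sphere (0 : Y) 1)
    (hiso : ∀ x y, ‖(f x : Y) - (f y : Y)‖ = ‖(x : WithLp 1 (A × B)) - (y : WithLp 1 (A × B))‖)
    (hsurj : Function.Surjective f) :
    ∃ L : WithLp 1 (A × B) ≃ₗᵢ[ℝ] Y, ∀ x, (f x : Y) = L x :=
  l1_sum_extends hA hB f hiso hsurj

end Vale.Agent.Results.P084.A_main
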